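import Vale.Agent.P032.S5.H306.Defs

/-!
# P032: D-star pairs, the corner

`DP.corner` : the common unit neighbours of a `D`-star pair are in direction of the closure of
the direction set, seen from one of the two points.
-/

open Set Filter Topology Metric

noncomputable section

namespace Vale.Agent.P032.Six

namespace DP

variable {U : Fin 6 → Set ℂ} {T : ℂ → Set (Fin 6)} {z y : ℂ} {A B : Set (Fin 6)}

/-! ### directions -/

theorem c4_nonemptyA (P : DP T z y A B) : A.Nonempty := by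
  rw [← Set.ncard_pos (Set.toFinite _), P.hz.cardA]; norm_num

theorem c4_notA (P : DP T z y A B) : ¬ A ⊆ T y := by
  intro h
  obtain ⟨i, hi⟩ := P.c4_nonemptyA
  have := h hi
  rw [P.cy] at this
  exact this hi

theorem c4_notB (P : DP T z y A B) : ¬ B ⊆ T z := P.symm.c4_notA

theorem c4_sweep (h : Irr U T) (P : DP T z y A B) {ξ : ℂ} (hξ : ξ ∈ Dir T z) (h1 : ξ ≠ z - y)
    (h2 : ξ ≠ y - z) : ξ ∈ Dir T y := by
  obtain ⟨hn, hs⟩ := hξ
  have hd : dist (z + ξ) z = 1 := by rw [dist_eq_norm, add_sub_cancel_left]; exact hn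
  have hJ : ∀ᶠ q in 𝓝[sphere z 1] (z + ξ), A ⊆ Pal U q := by
    filter_upwards [mem_nhdsWithin_of_mem_nhds (h.nhd (z + ξ)), self_mem_nhdsWithin] with q h3 h4
    exact (P.hz.h1 q h4 (h3.trans hs)).trans (h.sub q)
  refine ⟨hn, ?_⟩
  rw [P.cy]
  intro i hi hiA
  refine h.mx.sweep_notMem (z := z) (q := z + ξ) (w := y + ξ) hd hJ ?_ ?_ ?_ hiA (h.sub _ hi)
  · rw [dist_eq_norm]
    have : y + ξ - (z + ξ) = y - z := by ring
    rw [this, ← dist_eq_norm, dist_comm]; exact P.d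
  · intro h5
    exact h1 (by rw [h5]; ring)
  · intro h5
    exact h2 (by linear_combination -h5)

theorem c4_dir_sub (h : Irr U T) (P : DP T z y A B) : Dir T z ⊆ Dir T y := by
  intro ξ hξ
  have h2 : ξ ≠ y - z := by
    rintro rfl
    have h3 := hξ.2
    rw [add_sub_cancel] at h3
    exact P.c4_notB (P.hy.sub.trans h3)
  by_cases h1 : ξ = z - y
  · exfalso
    -- generic points near `z` on `S(y)`
    have hz : dist z y = 1 := P.d
    have e1 : ∀ᶠ q in 𝓝 z, T (z + (q - y)) ⊆ T (z + ξ) := by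
      have hc : ContinuousAt (fun q : ℂ => z + (q - y)) z := by fun_prop
      have := hc.eventually (h.nhd (z + (z - y)))
      rw [h1]
      exact this
    have e2 : ∀ᶠ q in 𝓝 z, q - y ≠ y - z := by
      have hc : ContinuousAt (fun q : ℂ => q - y) z := by fun_prop
      refine hc.eventually_ne ?_
      intro h5
      exact h2 (by rw [h1]; exact h5)
    have e3 : ∀ᶠ q in 𝓝 z, T q ⊆ T z := h.nhd z
    obtain ⟨q, ⟨⟨hq1, hq2⟩, hq3⟩, hq4, hq5, -, -⟩ := exists_generic (z := y) (p := z) (y := z) hz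
      (s := {q | (T (z + (q - y)) ⊆ T (z + ξ) ∧ q - y ≠ y - z) ∧ T q ⊆ T z})
      (mem_nhdsWithin_of_mem_nhds ((e1.and e2).and e3))
    have h6 : q - y ∈ Dir T z := ⟨by rw [← dist_eq_norm]; exact hq4, hq1.trans hξ.2⟩
    have h7 := P.c4_sweep h h6 (fun h8 => hq5 (by linear_combination h8)) hq2
    have h8 := h7.2
    rw [add_sub_cancel] at h8
    exact P.c4_notB ((P.hy.h1 q hq4 h8).trans hq3)
  · exact P.c4_sweep h hξ h1 h2

theorem c4_dir_eq (h : Irr U T) (P : DP T z y A B) : Dir T z = Dir T y :=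
  Subset.antisymm (P.c4_dir_sub h) (P.symm.c4_dir_sub h)

theorem c4_axis (h : Irr U T) (P : DP T z y A B) : z - y ∉ closure (Dir T z) := by
  rw [P.c4_dir_eq h]
  intro hcl
  have e1 : ∀ᶠ ξ in 𝓝 (z - y), T (y + ξ) ⊆ T z := by
    have hc : ContinuousAt (fun ξ : ℂ => y + ξ) (z - y) := by fun_prop
    have := hc.eventually (h.nhd (y + (z - y)))
    rw [add_sub_cancel] at this
    exact this
  obtain ⟨ξ, hξ, h1⟩ := ((mem_closure_iff_frequently.1 hcl).and_eventually e1).exists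
  refine P.c4_notB ((P.hy.h1 (y + ξ) ?_ hξ.2).trans h1)
  rw [dist_eq_norm, add_sub_cancel_left]; exact hξ.1

theorem c4_axis' (h : Irr U T) (P : DP T z y A B) : y - z ∉ closure (Dir T z) := by
  rw [P.c4_dir_eq h]; exact P.symm.c4_axis h

/-! ### partner line at a point outside the closure of the directions -/

theorem c4_pl (h : Irr U T) {c p v : ℂ} {e f : Fin 6} (hc : T c = {e, f}ᶜ) (hp : dist p c = 1)
    (hcl : p - c ∉ closure (Dir T c)) (he : e ∉ T p) (hv : dist p v = 1) (hf : f ∈ T v) :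
    v = c ∨ v + c = 2 * p := by
  have hopen : ∀ᶠ q in 𝓝 p, q - c ∉ closure (Dir T c) := by
    have hcc : ContinuousAt (fun q : ℂ => q - c) p := by fun_prop
    exact hcc.eventually (isClosed_closure.isOpen_compl.mem_nhds hcl)
  refine h.mx.partner_line hp ?_ hv (h.sub v hf)
  filter_upwards [mem_nhdsWithin_of_mem_nhds hopen, mem_nhdsWithin_of_mem_nhds (h.nhd p),
    self_mem_nhdsWithin] with q h1 h2 h3
  refine h.sub q ?_
  by_contra hfq
  refine h1 (subset_closure ⟨by rw [← dist_eq_norm]; exact h3, ?_⟩)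
  rw [add_sub_cancel, hc]
  rintro i hi (rfl | rfl)
  · exact he (h2 hi)
  · exact hfq hi

theorem c4_nc {x y z : ℂ} (hxz : dist x z = 1) (hyz : dist y z = 1) : y + z ≠ 2 * x := by
  intro h
  have h1 : y - z = 2 * (x - z) := by linear_combination h
  have h2 : dist y z = 2 := by
    rw [dist_eq_norm, h1, norm_mul, ← dist_eq_norm, hxz]; simp
  linarith

theorem c4_ne {y z : ℂ} (hyz : dist y z = 1) : y ≠ z := by
  rintro rfl
  rw [dist_self] at hyz
  norm_num at hyz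

/-! ### the broken pair of the corner is mixed -/

theorem c4_noB (h : Irr U T) (P : DP T z y A B) {w : ℂ} (hwz : dist w z = 1)
    (hwy : dist w y = 1) (hw : Harm T w B) : False := by
  obtain ⟨p, hp, hJ⟩ := hw.arc
  obtain ⟨q1, hq1, hq1w, hne1, hne2, hJ1⟩ := exists_generic (y := z) hp hJ
  have e1 : ∀ᶠ q in 𝓝 q1, q ≠ z := continuousAt_id.eventually_ne hne1
  have e2 : ∀ᶠ q in 𝓝 q1, q + z ≠ 2 * w := by
    have hc : ContinuousAt (fun q : ℂ => q + z) q1 := by fun_prop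
    exact hc.eventually_ne hne2
  obtain ⟨q, ⟨hq, hqz1, hqz2⟩, hqw, hqy1, hqy2, hJ2⟩ := exists_generic (y := y) hq1w
    (s := {q | T q = B} ∩ {q | q ≠ z ∧ q + z ≠ 2 * w})
    (inter_mem hJ1 (mem_nhdsWithin_of_mem_nhds (e1.and e2)))
  have hJ3 : ∀ᶠ q' in 𝓝[sphere w 1] q, B ⊆ Pal U q' := by
    filter_upwards [hJ2] with q' hq'
    have : T q' = B := hq'.1
    rw [← this]; exact h.sub q'
  have key : ∀ v : ℂ, dist w v = 1 → q ≠ v → q + v ≠ 2 * w → ∀ i ∈ B, i ∉ T (v + (q - w)) := by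
    intro v hv h1 h2 i hi hiT
    refine h.mx.sweep_notMem (z := w) (q := q) (w := v + (q - w)) hqw hJ3 ?_ ?_ ?_ hi
      (h.sub _ hiT)
    · rw [dist_eq_norm]
      have : v + (q - w) - q = v - w := by ring
      rw [this, ← dist_eq_norm, dist_comm]; exact hv
    · intro h5
      exact h2 (by linear_combination -h5)
    · intro h5
      exact h1 (by linear_combination -h5)
  have hn : ‖q - w‖ = 1 := by rw [← dist_eq_norm]; exact hqw
  have hDz : q - w ∈ Dir T z := by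
    refine ⟨hn, ?_⟩
    rw [P.cz]
    intro i hi hiB
    exact key z hwz hqz1 hqz2 i hiB hi
  have hDy : q - w ∈ Dir T y := by rw [← P.c4_dir_eq h]; exact hDz
  have hBy := P.hy.h1 (y + (q - w)) (by rw [dist_eq_norm, add_sub_cancel_left]; exact hn) hDy.2
  obtain ⟨i, hi⟩ := P.symm.c4_nonemptyA
  exact key y hwy hqy1 hqy2 i hi (hBy hi)

/-! ### paths -/

/-- the first point with colour `a` -/
theorem c4_first (h : Irr U T) {a b : Fin 6} {c : ℝ → ℂ} (hc : Continuous c)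
    (h0 : a ∉ T (c 0)) (h1 : a ∈ T (c 1))
    (hab : ∀ s ∈ Icc (0 : ℝ) 1, a ∈ T (c s) ∨ b ∈ T (c s)) :
    ∃ s0, 0 < s0 ∧ s0 ≤ 1 ∧ (∀ s, 0 ≤ s → s < s0 → a ∉ T (c s)) ∧ a ∈ T (c s0) ∧
      b ∈ T (c s0) := by
  have hcl : IsClosed (c ⁻¹' {x | a ∈ T x}) := (h.closed a).preimage hc
  have hclb : IsClosed (c ⁻¹' {x | b ∈ T x}) := (h.closed b).preimage hc
  obtain ⟨s0, ⟨hs0, hs0a⟩, hleast⟩ := (isCompact_Icc.inter_right hcl).exists_isLeast
    ⟨1, right_mem_Icc.2 zero_le_one, h1⟩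
  have hpos : 0 < s0 := by
    rcases hs0.1.lt_or_eq with h2 | h2
    · exact h2
    · exact absurd (by rw [h2]; exact hs0a) h0
  have hlt : ∀ s, 0 ≤ s → s < s0 → a ∉ T (c s) := by
    intro s hs hss hcon
    have := hleast ⟨⟨hs, hss.le.trans hs0.2⟩, hcon⟩
    linarith
  refine ⟨s0, hpos, hs0.2, hlt, hs0a, ?_⟩
  have hsub : Ico 0 s0 ⊆ c ⁻¹' {x | b ∈ T x} := by
    intro s hs
    exact (hab s ⟨hs.1, hs.2.le.trans hs0.2⟩).resolve_left (hlt s hs.1 hs.2)
  have h2 := closure_minimal hsub hclb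
  rw [closure_Ico hpos.ne] at h2
  exact h2 (right_mem_Icc.2 hpos.le)

/-- a colour with a transversal partner is not carried by the whole arc -/
theorem c4_exit (h : Irr U T) {u v : ℂ} {α η : ℝ} {t : Fin 6} (hη : 0 < η)
    (hd : dist (u + cis α) v = 1) (hne : v ≠ u) (hne2 : v + u ≠ 2 * (u + cis α))
    (htv : t ∈ T v) : ∃ s, |s - α| < η ∧ t ∉ T (u + cis s) := by
  by_contra hcon
  push Not at hcon
  have hup : dist (u + cis α) u = 1 := dist_add_cis u α
  have hcr : cr (cis α) (u + cis α - v) ≠ 0 := by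
    have := cr_ne (z := u + cis α) (c := u) (q := v) hup hd hne.symm
      (by rw [add_comm]; exact hne2)
    rwa [add_sub_cancel_left] at this
  obtain ⟨t1, t2, h1, h2, h3, h4⟩ := circle_signs (c := u) (q := v) (t0 := α) hd hcr hη
  have hQ : IsPreconnected ((fun t => u + cis t) '' ball α η) :=
    (convex_ball α η).isPreconnected.image _
      (continuous_const.add continuous_cis).continuousOn
  have hm1 : t1 ∈ ball α η := by rw [mem_ball, Real.dist_eq]; exact h1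
  have hm2 : t2 ∈ ball α η := by rw [mem_ball, Real.dist_eq]; exact h2
  refine h.mx.wlemma (i := t) hQ ?_ (z := v) ⟨t1, hm1, rfl⟩ ⟨t2, hm2, rfl⟩ h3 h4 (h.sub v htv)
  rintro _ ⟨r, hr, rfl⟩
  exact h.sub _ (hcon r (by rw [← Real.dist_eq]; exact hr))

/-- a path on the circle about `y` which runs into a point with both colours of `A`, near `z` -/
theorem c4_run (h : Irr U T) {a b : Fin 6} {z y w : ℂ} {D : Set ℂ} (hD : IsClosed D)
    (hDy : Dir T y ⊆ D) (hz : dist z y = 1) (hay : T y = {a, b}ᶜ) (haz : a ∈ T z)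
    (hax : z - y ∉ D) (hw : dist z w = 1) (hwy : w ≠ y) (hwy2 : w + y ≠ 2 * z) (haw : a ∈ T w)
    {N : Set ℂ} (hN : N ∈ 𝓝 z) :
    ∃ c : ℝ → ℂ, Continuous c ∧ (∀ s ∈ Icc (0 : ℝ) 1, c s ∈ N ∧ dist (c s) y = 1) ∧
      (∀ s, 0 ≤ s → s < 1 → a ∉ T (c s)) ∧ a ∈ T (c 1) ∧ b ∈ T (c 1) := by
  obtain ⟨α, hα⟩ := exists_cis (u := z - y) (by rw [← dist_eq_norm]; exact hz)
  have hzα : y + cis α = z := by rw [← hα]; ring
  have hcc : Continuous fun t : ℝ => y + cis t := continuous_const.add continuous_cis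
  have hopen : ∀ᶠ q in 𝓝 z, q - y ∉ D := by
    have hcc : ContinuousAt (fun q : ℂ => q - y) z := by fun_prop
    exact hcc.eventually (hD.isOpen_compl.mem_nhds hax)
  have hpre : (fun t : ℝ => y + cis t) ⁻¹' (N ∩ {q | q - y ∉ D}) ∈ 𝓝 α :=
    hcc.continuousAt.preimage_mem_nhds (by rw [hzα]; exact inter_mem hN hopen)
  obtain ⟨η, hη, hball⟩ := Metric.mem_nhds_iff.1 hpre
  obtain ⟨t, ht, hat⟩ := c4_exit h (u := y) (v := w) (α := α) (t := a) hη
    (by rw [hzα]; exact hw) hwy (by rw [hzα]; exact hwy2) haw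
  -- the path from `t` to `α`
  have hcont : Continuous fun s : ℝ => y + cis (t + s * (α - t)) :=
    hcc.comp (by fun_prop : Continuous fun s : ℝ => t + s * (α - t))
  have hin : ∀ s ∈ Icc (0 : ℝ) 1, y + cis (t + s * (α - t)) ∈ N ∩ {q | q - y ∉ D} := by
    intro s hs
    refine hball ?_
    rw [mem_ball, Real.dist_eq]
    have e : t + s * (α - t) - α = (1 - s) * (t - α) := by ring
    rw [e, abs_mul, abs_of_nonneg (by linarith [hs.2])]
    have : (1 - s) * |t - α| ≤ 1 * |t - α| :=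
      mul_le_mul_of_nonneg_right (by linarith [hs.1]) (abs_nonneg _)
    linarith
  obtain ⟨s0, hs0, hs1, hlt, ha0, hb0⟩ := c4_first h (a := a) (b := b) hcont
    (by simpa using hat) (by
      have e : t + 1 * (α - t) = α := by ring
      simp only [e]
      rw [hzα]; exact haz) (by
      intro s hs
      by_contra hcon
      push Not at hcon
      refine (hin s hs).2 (hDy ⟨?_, ?_⟩)
      · rw [add_sub_cancel_left]; exact norm_cis _
      · rw [add_sub_cancel, hay]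
        rintro i hi (rfl | rfl)
        · exact hcon.1 hi
        · exact hcon.2 hi)
  refine ⟨fun s => y + cis (t + (s0 * s) * (α - t)), hcont.comp (by fun_prop :
    Continuous fun s : ℝ => s0 * s), fun s hs => ⟨(hin (s0 * s) ?_).1, dist_add_cis y _⟩,
    fun s hs hs' => hlt (s0 * s) (by positivity) (by nlinarith), ?_, ?_⟩
  · exact ⟨mul_nonneg hs0.le hs.1, by nlinarith [hs.1, hs.2]⟩
  · simpa using ha0
  · simpa using hb0

/-- the apex of the isosceles triangle with unit legs -/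
theorem c4_apex {z y w : ℂ} (hzy : dist z y = 1) (hwz : dist w z = 1) (hwy : dist w y = 1) :
    ∃ p : ℂ × ℂ → ℂ, ∃ δ > 0, p (z, y) = w ∧ ContinuousOn p (ball z δ ×ˢ ball y δ) ∧
      ∀ x ∈ ball z δ ×ˢ ball y δ, dist (p x) x.1 = 1 ∧ dist (p x) x.2 = 1 := by
  have hu0 : z - y ≠ 0 := sub_ne_zero.2 (c4_ne hzy)
  have hun : ‖z - y‖ = 1 := by rw [← dist_eq_norm]; exact hzy
  obtain ⟨ω, hω⟩ : ∃ ω : ℂ, ω = (w - y) / (z - y) := ⟨_, rfl⟩
  have hwω : w - y = (z - y) * ω := by rw [hω]; field_simp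
  have h1 : ‖ω‖ = 1 := by
    have : ‖w - y‖ = ‖z - y‖ * ‖ω‖ := by rw [hwω, norm_mul]
    rw [hun, one_mul, ← dist_eq_norm, hwy] at this
    exact this.symm
  have h2 : ‖ω - 1‖ = 1 := by
    have h3 : w - z = (z - y) * (ω - 1) := by linear_combination hwω
    have : ‖w - z‖ = ‖z - y‖ * ‖ω - 1‖ := by rw [h3, norm_mul]
    rw [hun, one_mul, ← dist_eq_norm, hwz] at this
    exact this.symm
  have h1' : ω.re ^ 2 + ω.im ^ 2 = 1 := by
    have := Complex.sq_norm ω
    rw [h1, Complex.normSq_apply] at this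
    nlinarith
  have h2' : (ω.re - 1) ^ 2 + ω.im ^ 2 = 1 := by
    have := Complex.sq_norm (ω - 1)
    rw [h2, Complex.normSq_apply] at this
    simp only [Complex.sub_re, Complex.sub_im, Complex.one_re, Complex.one_im, sub_zero] at this
    nlinarith
  have hre : ω.re = 1 / 2 := by nlinarith
  have him : ω.im ^ 2 = 3 / 4 := by rw [hre] at h1'; nlinarith
  have hωe : ω = 1 / 2 + (ω.im : ℂ) * Complex.I := by
    conv_lhs => rw [← Complex.re_add_im ω, hre]
    push_cast; ring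
  let κ : ℂ × ℂ → ℝ := fun x => ω.im * √(4 / 3 * ((‖x.1 - x.2‖ ^ 2)⁻¹ - 1 / 4))
  have hnorm : ∀ x ∈ ball z (1 / 4 : ℝ) ×ˢ ball y (1 / 4 : ℝ),
      1 / 2 < ‖x.1 - x.2‖ ∧ ‖x.1 - x.2‖ < 3 / 2 := by
    rintro ⟨q, r⟩ ⟨hq, hr⟩
    have hq : ‖q - z‖ < 1 / 4 := by rw [← dist_eq_norm]; exact hq
    have hr : ‖r - y‖ < 1 / 4 := by rw [← dist_eq_norm]; exact hr
    have e : (q - r) - (z - y) = (q - z) - (r - y) := by ring
    have h3 : ‖(q - r) - (z - y)‖ < 1 / 2 := by
      rw [e]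
      have := norm_sub_le (q - z) (r - y)
      linarith
    have h4 := abs_norm_sub_norm_le (q - r) (z - y)
    rw [hun] at h4
    have h5 := abs_le.1 h4
    simp only
    constructor <;> linarith [h5.1, h5.2]
  refine ⟨fun x => (x.1 + x.2) / 2 + (κ x : ℂ) * (Complex.I * (x.1 - x.2)), 1 / 4, by norm_num,
    ?_, ?_, ?_⟩
  · have hκ : κ (z, y) = ω.im := by
      simp only [κ]
      rw [hun]
      norm_num
    simp only [hκ]
    linear_combination -(z - y) * hωe - hwω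
  · refine ContinuousOn.add (by fun_prop) (ContinuousOn.mul ?_ (by fun_prop))
    refine Complex.continuous_ofReal.comp_continuousOn ?_
    refine continuousOn_const.mul (Real.continuous_sqrt.comp_continuousOn ?_)
    refine continuousOn_const.mul (ContinuousOn.sub ?_ continuousOn_const)
    refine ContinuousOn.inv₀ (by fun_prop) fun x hx => ?_
    have := (hnorm x hx).1
    positivity
  · intro x hx
    obtain ⟨h3, h4⟩ := hnorm x hx
    have hpos : 0 < ‖x.1 - x.2‖ := by linarith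
    have h5 : (0 : ℝ) ≤ 4 / 3 * ((‖x.1 - x.2‖ ^ 2)⁻¹ - 1 / 4) := by
      have h6 : (1 / 4 : ℝ) ≤ (‖x.1 - x.2‖ ^ 2)⁻¹ := by
        rw [one_div]
        exact inv_anti₀ (by positivity) (by nlinarith)
      linarith
    have hκ2 : κ x ^ 2 = (‖x.1 - x.2‖ ^ 2)⁻¹ - 1 / 4 := by
      simp only [κ]
      rw [mul_pow, Real.sq_sqrt h5, him]
      ring
    have hone : ‖x.1 - x.2‖ ^ 2 * (1 / 4 + κ x ^ 2) = 1 := by
      rw [hκ2]
      field_simp
      ring
    have hN : ∀ c : ℝ, c ^ 2 = 1 / 4 → ‖(x.1 - x.2) * ((c : ℂ) + (κ x : ℂ) * Complex.I)‖ = 1 := by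
      intro c hc
      have h6 : ‖(c : ℂ) + (κ x : ℂ) * Complex.I‖ ^ 2 = 1 / 4 + κ x ^ 2 := by
        rw [Complex.sq_norm, Complex.normSq_add_mul_I, hc]
      have h7 : ‖(x.1 - x.2) * ((c : ℂ) + (κ x : ℂ) * Complex.I)‖ ^ 2 = 1 := by
        rw [norm_mul, mul_pow, h6, hone]
      have h8 := norm_nonneg ((x.1 - x.2) * ((c : ℂ) + (κ x : ℂ) * Complex.I))
      nlinarith
    constructor
    · rw [dist_eq_norm, ← hN (-1 / 2) (by norm_num)]
      congr 1
      push_cast; ring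
    · rw [dist_eq_norm, ← hN (1 / 2) (by norm_num)]
      congr 1
      push_cast; ring

/-! ### the mixed case -/

theorem c4_mixed (F : Fr U T) {a b e f : Fin 6} (P : DP T z y {a, b} {e, f}) {w : ℂ}
    (hwz : dist w z = 1) (hwy : dist w y = 1) (nz : w - z ∉ closure (Dir T z))
    (ny : w - y ∉ closure (Dir T z)) (hw : Harm T w {a, e}) (hbw : b ∈ T w) (hfw : f ∈ T w) :
    (∀ i ∈ T w, i = a ∨ i = b ∨ i = e ∨ i = f) → False := by
  intro hTw
  have h := F.irr
  have hDy := P.c4_dir_eq h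
  have hax := P.c4_axis h
  have hax' := P.c4_axis' h
  have hzy : dist z y = 1 := P.d
  have hyz : dist y z = 1 := by rw [dist_comm]; exact P.d
  have hzw : dist z w = 1 := by rw [dist_comm]; exact hwz
  have hyw : dist y w = 1 := by rw [dist_comm]; exact hwy
  have haz : a ∈ T z := P.hz.sub (by simp)
  have hey : e ∈ T y := P.hy.sub (by simp)
  have haw : a ∈ T w := hw.sub (by simp)
  have hew : e ∈ T w := hw.sub (by simp)
  obtain ⟨p, δ, hδ, hp0, hpc, hpd⟩ := c4_apex hzy hwz hwy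
  have hbox : ball z δ ×ˢ ball y δ ∈ 𝓝 (z, y) :=
    prod_mem_nhds (ball_mem_nhds z hδ) (ball_mem_nhds y hδ)
  have hpat : ContinuousAt p (z, y) := hpc.continuousAt hbox
  have hfst : ContinuousAt (fun x : ℂ × ℂ => x.1) (z, y) := continuousAt_fst
  have hsnd : ContinuousAt (fun x : ℂ × ℂ => x.2) (z, y) := continuousAt_snd
  have hoc : IsOpen (closure (Dir T z))ᶜ := isClosed_closure.isOpen_compl
  -- the neighbourhood
  have g1 : ∀ᶠ x in 𝓝 (z, y), x.1 - y ∈ (closure (Dir T z))ᶜ :=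
    (hfst.sub continuousAt_const).eventually (hoc.mem_nhds hax)
  have g1' : ∀ᶠ x in 𝓝 (z, y), x.2 - z ∈ (closure (Dir T z))ᶜ :=
    (hsnd.sub continuousAt_const).eventually (hoc.mem_nhds hax')
  have g2 : ∀ᶠ x in 𝓝 (z, y), ({a, b} ⊆ T x.1 → T x.1 = T z) ∧
      (∀ A', Harm T x.1 A' → T x.1 = T z ∧ A' = {a, b}) :=
    hfst.eventually ((P.hz.layerE h).and (P.hz.nhd h))
  have g3 : ∀ᶠ x in 𝓝 (z, y), ({e, f} ⊆ T x.2 → T x.2 = T y) ∧
      (∀ A', Harm T x.2 A' → T x.2 = T y ∧ A' = {e, f}) :=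
    hsnd.eventually ((P.hy.layerE h).and (P.hy.nhd h))
  have g4 : ∀ᶠ x in 𝓝 (z, y), T (p x) ⊆ T w ∧ ({a, e} ⊆ T (p x) → T (p x) = T w) := by
    have := (h.nhd w).and (hw.layerE h)
    rw [← hp0] at this
    have h2 := hpat.eventually this
    rw [hp0] at h2
    exact h2
  have g5 : ∀ᶠ x in 𝓝 (z, y), p x - x.1 ∈ (closure (Dir T z))ᶜ :=
    (hpat.sub hfst).eventually (hoc.mem_nhds (by simp only [Pi.sub_apply]; rw [hp0]; exact nz))
  have g5' : ∀ᶠ x in 𝓝 (z, y), p x - x.2 ∈ (closure (Dir T z))ᶜ :=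
    (hpat.sub hsnd).eventually (hoc.mem_nhds (by simp only [Pi.sub_apply]; rw [hp0]; exact ny))
  have g6 : ∀ᶠ x in 𝓝 (z, y), p x ≠ y := hpat.eventually_ne (by rw [hp0]; exact c4_ne hwy)
  have g6' : ∀ᶠ x in 𝓝 (z, y), p x ≠ z := hpat.eventually_ne (by rw [hp0]; exact c4_ne hwz)
  have g7 : ∀ᶠ x in 𝓝 (z, y), p x + y - 2 * x.1 ≠ 0 := by
    refine ((hpat.add continuousAt_const).sub (continuousAt_const.mul hfst)).eventually_ne ?_
    simp only [Pi.sub_apply, Pi.add_apply, Pi.mul_apply]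
    rw [hp0]
    exact sub_ne_zero.2 (c4_nc hzy hwy)
  have g7' : ∀ᶠ x in 𝓝 (z, y), p x + z - 2 * x.2 ≠ 0 := by
    refine ((hpat.add continuousAt_const).sub (continuousAt_const.mul hsnd)).eventually_ne ?_
    simp only [Pi.sub_apply, Pi.add_apply, Pi.mul_apply]
    rw [hp0]
    exact sub_ne_zero.2 (c4_nc hyz hwz)
  have gall := (((g1.and g1').and (g2.and g3)).and ((g4.and (g5.and g5')).and
    ((g6.and g6').and (g7.and g7')))).and hbox
  rw [nhds_prod_eq] at gall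
  obtain ⟨N1, hN1, N2, hN2, hN⟩ := mem_prod_iff.1 gall
  -- the two paths
  obtain ⟨c, hc, hcN, hca, hca1, hcb1⟩ := c4_run h (a := a) (b := b) (z := z) (y := y) (w := w)
    isClosed_closure (by rw [← hDy]; exact subset_closure) hzy P.cy haz hax hzw (c4_ne hwy)
    (c4_nc hzy hwy) haw hN1
  obtain ⟨d, hd, hdN, hde, hde1, hdf1⟩ := c4_run h (a := e) (b := f) (z := y) (y := z) (w := w)
    isClosed_closure subset_closure hyz P.cz hey hax' hyw (c4_ne hwz)
    (c4_nc hyz hwz) hew hN2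
  have hx : ∀ s ∈ Icc (0 : ℝ) 1, (c (1 - s), d s) ∈ N1 ×ˢ N2 := fun s hs =>
    ⟨(hcN (1 - s) ⟨by linarith [hs.2], by linarith [hs.1]⟩).1, (hdN s hs).1⟩
  have hcy : ∀ s ∈ Icc (0 : ℝ) 1, dist (c (1 - s)) y = 1 := fun s hs =>
    (hcN (1 - s) ⟨by linarith [hs.2], by linarith [hs.1]⟩).2
  have hdz : ∀ s ∈ Icc (0 : ℝ) 1, dist (d s) z = 1 := fun s hs => (hdN s hs).2
  -- `f` is missing for `s < 1`, `b` is missing for `s > 0`
  have hf : ∀ s ∈ Icc (0 : ℝ) 1, s < 1 → f ∉ T (p (c (1 - s), d s)) := by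
    intro s hs hs1 hcon
    obtain ⟨⟨⟨⟨k1, k1'⟩, k2, k3⟩, ⟨⟨k4, k5, k5'⟩, ⟨k6, k6'⟩, k7, k7'⟩⟩, kb⟩ := hN (hx s hs)
    rcases c4_pl h (c := z) (p := d s) (v := p (c (1 - s), d s)) P.cz (hdz s hs) k1'
      (hde s hs.1 hs1) (by rw [dist_comm]; exact (hpd _ kb).2) hcon with h1 | h1
    · exact k6' h1
    · exact k7' (sub_eq_zero.2 h1)
  have hb : ∀ s ∈ Icc (0 : ℝ) 1, 0 < s → b ∉ T (p (c (1 - s), d s)) := by
    intro s hs hs1 hcon
    obtain ⟨⟨⟨⟨k1, k1'⟩, k2, k3⟩, ⟨⟨k4, k5, k5'⟩, ⟨k6, k6'⟩, k7, k7'⟩⟩, kb⟩ := hN (hx s hs)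
    rcases c4_pl h (c := y) (p := c (1 - s)) (v := p (c (1 - s), d s)) P.cy (hcy s hs)
      (by rw [← hDy]; exact k1) (hca (1 - s) (by linarith [hs.2]) (by linarith))
      (by rw [dist_comm]; exact (hpd _ kb).1) hcon with h1 | h1
    · exact k6 h1
    · exact k7 (sub_eq_zero.2 h1)
  -- `e` at the start
  have h0 : (0 : ℝ) ∈ Icc (0 : ℝ) 1 := ⟨le_refl _, zero_le_one⟩
  have h1 : (1 : ℝ) ∈ Icc (0 : ℝ) 1 := ⟨zero_le_one, le_refl _⟩
  have he0 : e ∈ T (p (c (1 - 0), d 0)) := by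
    obtain ⟨⟨⟨⟨k1, k1'⟩, k2, k3⟩, ⟨⟨k4, k5, k5'⟩, ⟨k6, k6'⟩, k7, k7'⟩⟩, kb⟩ := hN (hx 0 h0)
    have e0 : c (1 - 0) = c 1 := by norm_num
    have hT : T (c (1 - 0)) = T z := k2.1 (by
      rintro i (rfl | rfl)
      · show i ∈ T (c (1 - 0))
        rw [e0]; exact hca1
      · show i ∈ T (c (1 - 0))
        rw [e0]; exact hcb1)
    obtain ⟨A', hA'⟩ := F.harm (c (1 - 0)) (by rw [hT]; exact P.hz.card)
    obtain ⟨-, rfl⟩ := k2.2 A' hA'
    have P' : DP T (c (1 - 0)) y {a, b} {e, f} :=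
      ⟨hA', P.hy, hcy 0 h0, by rw [hT]; exact P.hC, by rw [hT]; exact P.cz, P.cy⟩
    have hD' : Dir T (c (1 - 0)) = Dir T z := by rw [P'.c4_dir_eq h, hDy]
    by_contra hcon
    have hf0 := hf 0 h0 zero_lt_one
    refine k5 (subset_closure ?_)
    rw [← hD']
    refine ⟨by rw [← dist_eq_norm]; exact (hpd _ kb).1, ?_⟩
    simp only
    rw [add_sub_cancel, P'.cz]
    rintro i hi (rfl | rfl)
    · exact hcon hi
    · exact hf0 hi
  have ha1 : a ∈ T (p (c (1 - 1), d 1)) := by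
    obtain ⟨⟨⟨⟨k1, k1'⟩, k2, k3⟩, ⟨⟨k4, k5, k5'⟩, ⟨k6, k6'⟩, k7, k7'⟩⟩, kb⟩ := hN (hx 1 h1)
    have hT : T (d 1) = T y := k3.1 (by
      rintro i (rfl | rfl)
      · exact hde1
      · exact hdf1)
    obtain ⟨A', hA'⟩ := F.harm (d 1) (by rw [hT]; exact P.hy.card)
    obtain ⟨-, rfl⟩ := k3.2 A' hA'
    have P' : DP T (d 1) z {e, f} {a, b} :=
      ⟨hA', P.hz, hdz 1 h1, by rw [hT]; exact P.hC.symm, by rw [hT]; exact P.cy, P.cz⟩
    have hD' : Dir T (d 1) = Dir T z := P'.c4_dir_eq h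
    by_contra hcon
    have hb1 := hb 1 h1 zero_lt_one
    refine k5' (subset_closure ?_)
    rw [← hD']
    refine ⟨by rw [← dist_eq_norm]; exact (hpd _ kb).2, ?_⟩
    simp only
    rw [add_sub_cancel, P'.cz]
    rintro i hi (rfl | rfl)
    · exact hcon hi
    · exact hb1 hi
  -- connectedness
  have hcont : ContinuousOn (fun s : ℝ => p (c (1 - s), d s)) (Icc 0 1) := by
    refine hpc.comp (t := ball z δ ×ˢ ball y δ) ?_ fun s hs => (hN (hx s hs)).2
    have hc' : Continuous fun s : ℝ => c (1 - s) := hc.comp (by fun_prop)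
    exact (hc'.prodMk hd).continuousOn
  have hC : IsPreconnected ((fun s : ℝ => p (c (1 - s), d s)) '' Icc 0 1) :=
    isPreconnected_Icc.image _ hcont
  obtain ⟨x, ⟨s, hs, rfl⟩, hxa, hxe⟩ := isPreconnected_closed_iff.1 hC {x | a ∈ T x}
    {x | e ∈ T x} (h.closed a) (h.closed e) (by
      rintro _ ⟨s, hs, rfl⟩
      rcases hs.1.lt_or_eq with hs0 | rfl
      · rcases hs.2.lt_or_eq with hs1 | rfl
        · obtain ⟨i, hi⟩ := h.ne (p (c (1 - s), d s))
          have hiw := (hN (hx s hs)).1.2.1.1.1 hi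
          rcases hTw i hiw with rfl | rfl | rfl | rfl
          · exact Or.inl hi
          · exact absurd hi (hb s hs hs0)
          · exact Or.inr hi
          · exact absurd hi (hf s hs hs1)
        · exact Or.inl ha1
      · exact Or.inr he0) ⟨_, ⟨1, h1, rfl⟩, ha1⟩ ⟨_, ⟨0, h0, rfl⟩, he0⟩
  have hfull := (hN (hx s hs)).1.2.1.1.2 (by
    rintro i (rfl | rfl)
    · exact hxa
    · exact hxe)
  rcases hs.1.lt_or_eq with hs0 | rfl
  · exact hb s hs hs0 (by rw [hfull]; exact hbw)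
  · exact hf 0 h0 zero_lt_one (by rw [hfull]; exact hfw)

/-- **Corner.** -/
theorem corner (F : Fr U T) (P : DP T z y A B) {w : ℂ} (hwz : dist w z = 1)
    (hwy : dist w y = 1) : w - z ∈ closure (Dir T z) ∨ w - y ∈ closure (Dir T z) := by
  by_contra hcon
  push Not at hcon
  obtain ⟨nz, ny⟩ := hcon
  have h := F.irr
  have hDy := P.c4_dir_eq h
  have hzy : dist z y = 1 := P.d
  have hyz : dist y z = 1 := by rw [dist_comm]; exact P.d
  have hAw : A ⊆ T w := by
    intro i hi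
    by_contra hiw
    obtain ⟨j, hj⟩ : ∃ j, A = {i, j} := by
      obtain ⟨a, b, -, hab⟩ := Set.ncard_eq_two.1 P.hz.cardA
      rw [hab] at hi
      rcases hi with rfl | rfl
      · exact ⟨b, hab⟩
      · exact ⟨a, by rw [hab, Set.pair_comm]⟩
    rcases c4_pl h (c := y) (p := w) (v := z) (e := i) (f := j) (by rw [P.cy, hj]) hwy
      (by rw [← hDy]; exact ny) hiw hwz (P.hz.sub (by rw [hj]; simp)) with h1 | h1
    · exact c4_ne hzy h1
    · exact c4_nc hwy hzy h1
  have hBw : B ⊆ T w := by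
    intro i hi
    by_contra hiw
    obtain ⟨j, hj⟩ : ∃ j, B = {i, j} := by
      obtain ⟨a, b, -, hab⟩ := Set.ncard_eq_two.1 P.hy.cardA
      rw [hab] at hi
      rcases hi with rfl | rfl
      · exact ⟨b, hab⟩
      · exact ⟨a, by rw [hab, Set.pair_comm]⟩
    rcases c4_pl h (c := z) (p := w) (v := y) (e := i) (f := j) (by rw [P.cz, hj]) hwz
      nz hiw hwy (P.hy.sub (by rw [hj]; simp)) with h1 | h1
    · exact c4_ne hyz h1
    · exact c4_nc hwz hyz h1
  have hcard : (A ∪ B).ncard = 4 := by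
    rw [Set.ncard_union_eq P.disj (Set.toFinite _) (Set.toFinite _), P.hz.cardA, P.hy.cardA]
  have hTw : A ∪ B = T w := Set.eq_of_subset_of_ncard_le (union_subset hAw hBw)
    (by rw [hcard]; exact F.le4 w) (Set.toFinite _)
  obtain ⟨A', hw⟩ := F.harm w (by rw [← hTw]; exact hcard)
  by_cases hA : ∃ a ∈ A', a ∈ A
  · by_cases hB : ∃ e ∈ A', e ∈ B
    · obtain ⟨a, haA', haA⟩ := hA
      obtain ⟨e, heA', heB⟩ := hB
      have hae : a ≠ e := by
        rintro rfl
        exact Set.disjoint_left.1 P.disj haA heB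
      have hA'e : ({a, e} : Set (Fin 6)) = A' := by
        refine Set.eq_of_subset_of_ncard_le ?_ (by rw [hw.cardA, Set.ncard_pair hae])
          (Set.toFinite _)
        rintro i (rfl | rfl)
        · exact haA'
        · exact heA'
      obtain ⟨b, hb⟩ : ∃ b, A = {a, b} := by
        obtain ⟨i, j, -, hij⟩ := Set.ncard_eq_two.1 P.hz.cardA
        rw [hij] at haA
        rcases haA with rfl | rfl
        · exact ⟨j, hij⟩
        · exact ⟨i, by rw [hij, Set.pair_comm]⟩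
      obtain ⟨f, hf⟩ : ∃ f, B = {e, f} := by
        obtain ⟨i, j, -, hij⟩ := Set.ncard_eq_two.1 P.hy.cardA
        rw [hij] at heB
        rcases heB with rfl | rfl
        · exact ⟨j, hij⟩
        · exact ⟨i, by rw [hij, Set.pair_comm]⟩
      subst hb hf hA'e
      refine c4_mixed F P hwz hwy nz ny hw (hAw (by simp)) (hBw (by simp)) fun i hi => ?_
      rw [← hTw] at hi
      rcases hi with (rfl | rfl) | (rfl | rfl)
      · exact Or.inl rfl
      · exact Or.inr (Or.inl rfl)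
      · exact Or.inr (Or.inr (Or.inl rfl))
      · exact Or.inr (Or.inr (Or.inr rfl))
    · push Not at hB
      have : A' = A := by
        refine Set.eq_of_subset_of_ncard_le (fun i hi => ?_) (by rw [hw.cardA, P.hz.cardA])
          (Set.toFinite _)
        have h1 := hw.sub hi
        rw [← hTw] at h1
        exact h1.resolve_right (hB i hi)
      subst this
      exact P.symm.c4_noB h hwy hwz hw
  · push Not at hA
    have : A' = B := by
      refine Set.eq_of_subset_of_ncard_le (fun i hi => ?_) (by rw [hw.cardA, P.hy.cardA])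
        (Set.toFinite _)
      have h1 := hw.sub hi
      rw [← hTw] at h1
      exact h1.resolve_left (hA i hi)
    subst this
    exact P.c4_noB h hwz hwy hw

end DP

end Vale.Agent.P032.Six
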